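import Vale.Agent.P144.Potential

namespace Vale.Agent.Results.P144.FixedBoundary

open Vale.Agent.P144

/-- For the ferromagnetic pair potential `Vstar` and every `lam > 0` the universality statement
forces the critical nearest-neighbour one-point limits in the triangle `tri` for the two fixed
boundary conditions `bcA` and `bcPlus` to coincide. Hence Q1 fails as soon as these two limits
exist (for `J = 1`) and differ at one point. -/
theorem result :
    (IsPotential Vstar ∧ IsOpen tri ∧ IsConnected tri ∧ Bornology.IsBounded tri) ∧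
    (∀ J > 0, ∀ lam > 0, UniversalFor J Vstar lam → ∀ CA CP : CorrFamily,
      IsCorrLimit (nnState J tri bcA) tri CA → IsCorrLimit (nnState J tri bcPlus) tri CP →
      ∀ x ∈ tri, CA 1 0 ![x] ![] = CP 1 0 ![x] ![]) ∧
    (∀ CA CP : CorrFamily,
      IsCorrLimit (nnState 1 tri bcA) tri CA → IsCorrLimit (nnState 1 tri bcPlus) tri CP →
      (∃ x ∈ tri, CA 1 0 ![x] ![] ≠ CP 1 0 ![x] ![]) → ¬ Q1) := by
  have htri : IsOpen tri ∧ IsConnected tri ∧ Bornology.IsBounded tri :=
    ⟨isOpen_tri, isConnected_tri, isBounded_tri⟩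
  have main : ∀ J > 0, ∀ lam > 0, UniversalFor J Vstar lam → ∀ CA CP : CorrFamily,
      IsCorrLimit (nnState J tri bcA) tri CA → IsCorrLimit (nnState J tri bcPlus) tri CP →
      ∀ x ∈ tri, CA 1 0 ![x] ![] = CP 1 0 ![x] ![] :=
    fun J hJ lam hl hU CA CP hA hP x hx => one_point_eq hJ hl hU hA hP htri hx
  refine ⟨⟨isPotential_vstar, htri⟩, main, ?_⟩
  rintro CA CP hA hP ⟨x, hx, hne⟩ hQ
  obtain ⟨lam₀, hl0, h⟩ := hQ 1 one_pos Vstar isPotential_vstar
  have hU := h (lam₀ / 2) (by rw [abs_of_pos (by linarith)]; linarith)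
  exact hne (main 1 one_pos (lam₀ / 2) (by linarith) hU CA CP hA hP x hx)

end Vale.Agent.Results.P144.FixedBoundary
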